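import Mathlib

namespace Vale.Agent.P208

open Filter Topology

/-- Real separable Hilbert space `ℓ²` of square summable real sequences. -/
abbrev L2 : Type := lp (fun _ : ℕ => ℝ) 2

/-- `X` is doubling with constant at most `L`: every closed ball of the metric space `X` is
covered by at most `L` closed balls of half its radius with centers in `X`. -/
def DoublingWith (X : Set L2) (L : ℕ) : Prop :=
  ∀ x ∈ X, ∀ r : ℝ, 0 < r → ∃ C : Finset L2, (∀ c ∈ C, c ∈ X) ∧ C.card ≤ L ∧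
    ∀ y ∈ X, dist y x ≤ r → ∃ c ∈ C, dist y c ≤ r / 2

/-- `X` is doubling. -/
def Doubling (X : Set L2) : Prop := ∃ L : ℕ, DoublingWith X L

/-- `X` admits a bi-Lipschitz embedding into `ℝ^k` with distortion at most `D`. -/
def EmbedsWith (X : Set L2) (k : ℕ) (D : ℝ) : Prop :=
  ∃ (f : L2 → EuclideanSpace ℝ (Fin k)) (a : ℝ), 0 < a ∧ ∀ x ∈ X, ∀ y ∈ X,
    a * dist x y ≤ dist (f x) (f y) ∧ dist (f x) (f y) ≤ D * a * dist x y

theorem EmbedsWith.subset {X Y : Set L2} {k : ℕ} {D : ℝ} (h : EmbedsWith X k D) (hY : Y ⊆ X) :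
    EmbedsWith Y k D := by
  obtain ⟨f, a, ha, hf⟩ := h
  exact ⟨f, a, ha, fun x hx y hy => hf x (hY hx) y (hY hy)⟩

theorem DoublingWith.subset {X F : Set L2} {L : ℕ} (h : DoublingWith X L) (hF : F ⊆ X) :
    DoublingWith F (L * L) := by
  classical
  intro x hx r hr
  obtain ⟨C, hCX, hCL, hC⟩ := h x (hF hx) r hr
  have h2 : ∀ c : L2, ∃ C' : Finset L2, (c ∈ X → (∀ c' ∈ C', c' ∈ X) ∧ C'.card ≤ L ∧
      ∀ y ∈ X, dist y c ≤ r / 2 → ∃ c' ∈ C', dist y c' ≤ r / 2 / 2) := by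
    intro c
    by_cases hc : c ∈ X
    · obtain ⟨C', h1, h2, h3⟩ := h c hc (r / 2) (by positivity)
      exact ⟨C', fun _ => ⟨h1, h2, h3⟩⟩
    · exact ⟨∅, fun h' => absurd h' hc⟩
  choose C' hC' using h2
  let φ : L2 → L2 := fun c => if h : ∃ z ∈ F, dist z c ≤ r / 2 / 2 then h.choose else x
  refine ⟨(C.biUnion C').image φ, ?_, ?_, ?_⟩
  · intro c hc
    rw [Finset.mem_image] at hc
    obtain ⟨c', _, rfl⟩ := hc
    by_cases h : ∃ z ∈ F, dist z c' ≤ r / 2 / 2
    · simp only [φ, dif_pos h]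
      exact h.choose_spec.1
    · simp only [φ, dif_neg h]
      exact hx
  · calc ((C.biUnion C').image φ).card ≤ (C.biUnion C').card := Finset.card_image_le
      _ ≤ C.card * L :=
        Finset.card_biUnion_le_card_mul _ _ _ (fun c hc => (hC' c (hCX c hc)).2.1)
      _ ≤ L * L := Nat.mul_le_mul_right _ hCL
  · intro y hy hyx
    obtain ⟨c, hc, hyc⟩ := hC y (hF hy) hyx
    obtain ⟨c', hc', hyc'⟩ := (hC' c (hCX c hc)).2.2 y (hF hy) hyc
    refine ⟨φ c', Finset.mem_image_of_mem _ (Finset.mem_biUnion.2 ⟨c, hc, hc'⟩), ?_⟩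
    have h : ∃ z ∈ F, dist z c' ≤ r / 2 / 2 := ⟨y, hy, hyc'⟩
    have h' : dist (φ c') c' ≤ r / 2 / 2 := by
      simp only [φ, dif_pos h]
      exact h.choose_spec.2
    calc dist y (φ c') ≤ dist y c' + dist c' (φ c') := dist_triangle _ _ _
      _ ≤ r / 2 / 2 + r / 2 / 2 := add_le_add hyc' (by rw [dist_comm]; exact h')
      _ = r / 2 := by ring

/-- Two steps of doubling. -/
theorem DoublingWith.two_steps {X : Set L2} {L : ℕ} (h : DoublingWith X L) {b : L2} (hb : b ∈ X)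
    {R : ℝ} (hR : 0 < R) : ∃ C : Finset L2, (∀ c ∈ C, c ∈ X) ∧ C.card ≤ L * L ∧
    ∀ y ∈ X, dist y b ≤ 2 * R → ∃ c ∈ C, dist y c ≤ R / 2 := by
  classical
  obtain ⟨C, hCX, hCL, hC⟩ := h b hb (2 * R) (by positivity)
  have h2 : ∀ c : L2, ∃ C' : Finset L2, (c ∈ X → (∀ c' ∈ C', c' ∈ X) ∧ C'.card ≤ L ∧
      ∀ y ∈ X, dist y c ≤ R → ∃ c' ∈ C', dist y c' ≤ R / 2) := by
    intro c
    by_cases hc : c ∈ X
    · obtain ⟨C', h1, h2, h3⟩ := h c hc R hR
      exact ⟨C', fun _ => ⟨h1, h2, h3⟩⟩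
    · exact ⟨∅, fun h' => absurd h' hc⟩
  choose C' hC' using h2
  refine ⟨C.biUnion C', ?_, ?_, ?_⟩
  · intro c hc
    obtain ⟨c', hc', hcc⟩ := Finset.mem_biUnion.1 hc
    exact (hC' c' (hCX c' hc')).1 c hcc
  · calc (C.biUnion C').card ≤ C.card * L :=
        Finset.card_biUnion_le_card_mul _ _ _ (fun c hc => (hC' c (hCX c hc)).2.1)
      _ ≤ L * L := Nat.mul_le_mul_right _ hCL
  · intro y hy hyx
    obtain ⟨c, hc, hyc⟩ := hC y hy hyx
    obtain ⟨c', hc', hyc'⟩ := (hC' c (hCX c hc)).2.2 y hy (by linarith)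
    exact ⟨c', Finset.mem_biUnion.2 ⟨c, hc, hc'⟩, hyc'⟩

/-- Doubling is preserved, with the same constant, by similarities. -/
theorem DoublingWith.image {X : Set L2} {L : ℕ} (h : DoublingWith X L) (φ : L2 → L2) {t : ℝ}
    (ht : 0 < t) (hφ : ∀ x y, dist (φ x) (φ y) = t * dist x y) : DoublingWith (φ '' X) L := by
  classical
  rintro _ ⟨x, hx, rfl⟩ r hr
  obtain ⟨C, hCX, hCL, hC⟩ := h x hx (r / t) (by positivity)
  refine ⟨C.image φ, ?_, Finset.card_image_le.trans hCL, ?_⟩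
  · intro c hc
    obtain ⟨c', hc', rfl⟩ := Finset.mem_image.1 hc
    exact ⟨c', hCX c' hc', rfl⟩
  · rintro _ ⟨y, hy, rfl⟩ hyr
    rw [hφ] at hyr
    obtain ⟨c, hc, hyc⟩ := hC y hy (by rw [le_div_iff₀ ht]; linarith)
    refine ⟨φ c, Finset.mem_image_of_mem _ hc, ?_⟩
    rw [hφ]
    have h1 : t * dist y c ≤ t * (r / t / 2) := mul_le_mul_of_nonneg_left hyc ht.le
    have h2 : t * (r / t / 2) = r / 2 := by field_simp
    linarith

/-- Compactness: if all finite subsets embed with the same data, so does the set. -/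
theorem embedsWith_of_finite {X : Set L2} {k : ℕ} {D : ℝ}
    (h : ∀ F : Set L2, F.Finite → F ⊆ X → EmbedsWith F k D) : EmbedsWith X k D := by
  classical
  rcases X.eq_empty_or_nonempty with rfl | ⟨x0, hx0⟩
  · exact ⟨fun _ => 0, 1, one_pos, fun x hx => absurd hx (by simp)⟩
  have h1 : ∀ F : Finset X, ∃ g : L2 → EuclideanSpace ℝ (Fin k), g x0 = 0 ∧
      ∀ x ∈ insert x0 (Subtype.val '' (F : Set X)), ∀ y ∈ insert x0 (Subtype.val '' (F : Set X)),
        dist x y ≤ dist (g x) (g y) ∧ dist (g x) (g y) ≤ D * dist x y := by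
    intro F
    obtain ⟨f, a, ha, hf⟩ := h (insert x0 (Subtype.val '' (F : Set X)))
      ((F.finite_toSet.image _).insert _) (by
        intro x hx
        rcases hx with rfl | ⟨y, _, rfl⟩
        · exact hx0
        · exact y.2)
    refine ⟨fun x => a⁻¹ • (f x - f x0), by simp, ?_⟩
    intro x hx y hy
    have hd : dist (a⁻¹ • (f x - f x0)) (a⁻¹ • (f y - f x0)) = a⁻¹ * dist (f x) (f y) := by
      rw [dist_smul₀, dist_sub_right, Real.norm_of_nonneg (by positivity)]
    rw [hd]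
    obtain ⟨h2, h3⟩ := hf x hx y hy
    constructor
    · rw [le_inv_mul_iff₀ ha]
      exact h2
    · rw [inv_mul_le_iff₀ ha]
      calc dist (f x) (f y) ≤ D * a * dist x y := h3
        _ = a * (D * dist x y) := by ring
  choose g hg0 hg using h1
  let U : Ultrafilter (Finset X) := Ultrafilter.of atTop
  have hU : ∀ x (hx : x ∈ X), ∀ᶠ F : Finset X in (U : Filter (Finset X)),
      x ∈ insert x0 (Subtype.val '' (F : Set X)) := by
    intro x hx
    have h2 : ∀ᶠ F : Finset X in (atTop : Filter (Finset X)), ({⟨x, hx⟩} : Finset X) ≤ F :=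
      Filter.eventually_ge_atTop _
    have h3 := (Ultrafilter.of_le (atTop : Filter (Finset X))) h2
    filter_upwards [h3] with F hF
    right
    exact ⟨⟨x, hx⟩, hF (Finset.mem_singleton_self _), rfl⟩
  have h2 : ∀ x : L2, ∃ z : EuclideanSpace ℝ (Fin k), x ∈ X →
      Tendsto (fun F => g F x) (U : Filter (Finset X)) (𝓝 z) := by
    intro x
    by_cases hx : x ∈ X
    · have h3 : ∀ᶠ F in (U : Filter (Finset X)),
          g F x ∈ Metric.closedBall (0 : EuclideanSpace ℝ (Fin k)) (D * dist x x0) := by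
        filter_upwards [hU x hx] with F hF
        rw [Metric.mem_closedBall, ← hg0 F]
        exact (hg F x hF x0 (Set.mem_insert _ _)).2
      obtain ⟨z, _, hz⟩ := (isCompact_closedBall (0 : EuclideanSpace ℝ (Fin k))
        (D * dist x x0)).ultrafilter_le_nhds (U.map fun F => g F x) (by
          rw [Filter.le_principal_iff]
          exact h3)
      exact ⟨z, fun _ => hz⟩
    · exact ⟨0, fun h => absurd h hx⟩
  choose f hf using h2
  refine ⟨f, 1, one_pos, fun x hx y hy => ?_⟩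
  have ht := (hf x hx).dist (hf y hy)
  have hev : ∀ᶠ F in (U : Filter (Finset X)), dist x y ≤ dist (g F x) (g F y) ∧
      dist (g F x) (g F y) ≤ D * dist x y := by
    filter_upwards [hU x hx, hU y hy] with F h1 h2
    exact hg F x h1 y h2
  constructor
  · rw [one_mul]
    exact ge_of_tendsto ht (hev.mono fun _ h => h.1)
  · rw [mul_one]
    exact le_of_tendsto ht (hev.mono fun _ h => h.2)

end Vale.Agent.P208
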