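import Vale.Agent.P208.Basic

namespace Vale.Agent.P208

open Filter Topology

theorem hasSum_block (m : ℕ) {u : ℕ → ℝ} {s : ℝ} (hu : HasSum u s) :
    HasSum (fun j : ℕ => if (Nat.unpair j).1 = m then u (Nat.unpair j).2 else 0) s := by
  have hinj : Function.Injective (fun i : ℕ => Nat.pair m i) := by
    intro i j hij
    have := congrArg (fun z => (Nat.unpair z).2) hij
    simpa using this
  rw [← hinj.hasSum_iff]
  · simpa [Function.comp_def] using hu
  · intro j hj
    by_cases h : (Nat.unpair j).1 = m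
    · exfalso
      apply hj
      refine ⟨(Nat.unpair j).2, ?_⟩
      rw [← h]
      exact Nat.pair_unpair j
    · simp [h]

/-- The block function: `x` moved to the `m`-th infinite block of coordinates. -/
def blk (m : ℕ) (x : ℕ → ℝ) : ℕ → ℝ :=
  fun j => if (Nat.unpair j).1 = m then x (Nat.unpair j).2 else 0

theorem hasSum_norm_blk (m : ℕ) (x : L2) :
    HasSum (fun j => ‖blk m x j‖ ^ (2 : ENNReal).toReal) (‖x‖ ^ (2 : ENNReal).toReal) := by
  have h := hasSum_block m (lp.hasSum_norm (p := 2) (by norm_num) x)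
  refine h.congr_fun ?_
  intro j
  unfold blk
  split_ifs
  · rfl
  · simp

/-- The isometric embedding of `ℓ²` on the `m`-th block of coordinates. -/
noncomputable def V (m : ℕ) (x : L2) : L2 :=
  ⟨blk m x, memℓp_gen (hasSum_norm_blk m x).summable⟩

theorem V_apply (m : ℕ) (x : L2) (j : ℕ) : V m x j = blk m x j := rfl

theorem norm_V (m : ℕ) (x : L2) : ‖V m x‖ = ‖x‖ := by
  have h1 := lp.hasSum_norm (p := 2) (by norm_num) (V m x)
  have h2 := hasSum_norm_blk m x
  have h3 : ‖V m x‖ ^ (2 : ENNReal).toReal = ‖x‖ ^ (2 : ENNReal).toReal := h1.unique h2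
  simp only [ENNReal.toReal_ofNat, Real.rpow_ofNat] at h3
  have := (sq_eq_sq₀ (norm_nonneg _) (norm_nonneg _)).1 h3
  exact this

theorem V_sub (m : ℕ) (x y : L2) : V m x - V m y = V m (x - y) := by
  ext j
  simp only [lp.coeFn_sub, Pi.sub_apply, V_apply, blk]
  split_ifs <;> simp

theorem dist_V (m : ℕ) (x y : L2) : dist (V m x) (V m y) = dist x y := by
  rw [dist_eq_norm, V_sub, norm_V, dist_eq_norm]

theorem V_zero (m : ℕ) : V m 0 = 0 := by
  ext j
  simp [V_apply, blk]

theorem norm_le_dist_V {m l : ℕ} (h : l ≠ m) (x y : L2) : ‖x‖ ≤ dist (V m x) (V l y) := by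
  rw [← norm_V m x, dist_eq_norm]
  refine lp.norm_mono (by norm_num) ?_
  intro j
  simp only [lp.coeFn_sub, Pi.sub_apply, V_apply, blk]
  by_cases h1 : (Nat.unpair j).1 = m
  · have h2 : (Nat.unpair j).1 ≠ l := by
      rw [h1]
      exact h.symm
    simp [h1, h.symm]
  · simp [h1]

end Vale.Agent.P208
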