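import Vale.Agent.P208.Blocks

namespace Vale.Agent.P208

open Filter Topology

/-- The union of the blocks. -/
def glue (Y : ℕ → Set L2) : Set L2 := ⋃ m, V m '' Y m

theorem mem_glue {Y : ℕ → Set L2} {q : L2} : q ∈ glue Y ↔ ∃ m, ∃ y ∈ Y m, V m y = q := by
  simp [glue]

/-- Hypotheses on the blocks. -/
structure Good (Y : ℕ → Set L2) (L : ℕ) (r δ : ℕ → ℝ) : Prop where
  zero_mem : ∀ m, (0 : L2) ∈ Y m
  fin : ∀ m, (Y m).Finite
  dbl : ∀ m, DoublingWith (Y m) L
  pos : ∀ m, 0 < δ m
  le : ∀ m, δ m ≤ r m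
  bdd : ∀ m, ∀ y ∈ Y m, ‖y‖ ≤ r m
  sep : ∀ m, ∀ y ∈ Y m, ∀ y' ∈ Y m, y ≠ y' → δ m ≤ dist y y'
  step : ∀ m, r (m + 1) ≤ δ m / 8

namespace Good

variable {Y : ℕ → Set L2} {L : ℕ} {r δ : ℕ → ℝ}

theorem r_pos (h : Good Y L r δ) (m : ℕ) : 0 < r m := (h.pos m).trans_le (h.le m)

theorem r_succ (h : Good Y L r δ) (m : ℕ) : r (m + 1) ≤ r m / 8 := by
  have := h.step m
  have := h.le m
  linarith

theorem r_anti (h : Good Y L r δ) : Antitone r := by
  refine antitone_nat_of_succ_le fun m => ?_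
  have := h.r_succ m
  have := h.r_pos m
  linarith

theorem r_le (h : Good Y L r δ) (m : ℕ) : r m ≤ r 0 * (1 / 8) ^ m := by
  induction m with
  | zero => simp
  | succ m ih =>
    have := h.r_succ m
    rw [pow_succ]
    linarith

theorem exists_small (h : Good Y L r δ) {ε : ℝ} (hε : 0 < ε) : ∃ m, r m ≤ ε := by
  have ht : Tendsto (fun m : ℕ => r 0 * (1 / 8 : ℝ) ^ m) atTop (𝓝 (r 0 * 0)) :=
    (tendsto_pow_atTop_nhds_zero_of_lt_one (by norm_num) (by norm_num)).const_mul _
  rw [mul_zero] at ht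
  obtain ⟨m, hm⟩ := (ht.eventually (gt_mem_nhds hε)).exists
  exact ⟨m, (h.r_le m).trans hm.le⟩

theorem isolated (h : Good Y L r δ) {j l : ℕ} {y y' : L2} (hy : y ∈ Y j) (hy' : y' ∈ Y l)
    (h0 : y ≠ 0) (hne : l ≠ j ∨ y' ≠ y) : δ j ≤ dist (V j y) (V l y') := by
  by_cases hlj : l = j
  · subst hlj
    have h1 : y' ≠ y := by
      rcases hne with h | h
      · exact absurd rfl h
      · exact h
    rw [dist_V]
    exact h.sep l y hy y' hy' h1.symm
  · calc δ j ≤ dist y 0 := h.sep j y hy 0 (h.zero_mem j) h0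
      _ = ‖y‖ := dist_zero_right y
      _ ≤ _ := norm_le_dist_V hlj y y'

theorem norm_V_le (h : Good Y L r δ) {j n : ℕ} (hjn : n ≤ j) {y : L2} (hy : y ∈ Y j) :
    ‖V j y‖ ≤ r n := by
  rw [norm_V]
  exact (h.bdd j y hy).trans (h.r_anti hjn)

theorem doubling (h : Good Y L r δ) : DoublingWith (glue Y) (L * L + 1) := by
  classical
  intro p hp R hR
  have hz : (0 : L2) ∈ glue Y := mem_glue.2 ⟨0, 0, h.zero_mem 0, V_zero 0⟩
  have hex : ∃ n, r n ≤ R / 2 := h.exists_small (by positivity)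
  obtain ⟨n, hn, hmin⟩ : ∃ n, r n ≤ R / 2 ∧ ∀ m < n, R / 2 < r m :=
    ⟨Nat.find hex, Nat.find_spec hex, fun m hm => not_le.1 (Nat.find_min hex hm)⟩
  rcases n with _ | m
  · refine ⟨{0}, by simpa using hz, by simp, ?_⟩
    intro q hq _
    obtain ⟨l, y, hy, rfl⟩ := mem_glue.1 hq
    refine ⟨0, Finset.mem_singleton_self _, ?_⟩
    rw [dist_zero_right]
    exact (h.norm_V_le (Nat.zero_le l) hy).trans hn
  have hm : R / 2 < r m := hmin m (Nat.lt_succ_self m)
  have hδ : ∀ j < m, R < δ j := by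
    intro j hj
    have h1 := h.step j
    have h2 : r m ≤ r (j + 1) := h.r_anti hj
    have := h.pos j
    linarith
  obtain ⟨l, y, hy, rfl⟩ := mem_glue.1 hp
  by_cases hcase : y ≠ 0 ∧ l < m
  · -- isolated point
    refine ⟨{V l y}, by simpa using hp, by simp, ?_⟩
    intro q hq hqp
    refine ⟨V l y, Finset.mem_singleton_self _, ?_⟩
    obtain ⟨l', y', hy', rfl⟩ := mem_glue.1 hq
    by_cases he : l' ≠ l ∨ y' ≠ y
    · exfalso
      have h1 := h.isolated hy hy' hcase.1 he
      have h2 := hδ l hcase.2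
      rw [dist_comm] at hqp
      linarith
    · push Not at he
      obtain ⟨rfl, rfl⟩ := he
      rw [dist_self]
      positivity
  · -- base point
    obtain ⟨b, hb, hbase⟩ : ∃ b ∈ Y m, ∀ y' ∈ Y m, dist (V m y') (V l y) ≤ R →
        dist y' b ≤ 2 * R := by
      by_cases hl : l = m
      · subst hl
        refine ⟨y, hy, fun y' _ hd => ?_⟩
        rw [dist_V] at hd
        linarith
      · refine ⟨0, h.zero_mem m, fun y' _ hd => ?_⟩
        have hnorm : ‖V l y‖ ≤ R / 2 := by
          by_cases hy0 : y = 0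
          · rw [hy0, V_zero, norm_zero]
            positivity
          · have hlm : m + 1 ≤ l := by
              by_contra hlt
              exact hcase ⟨hy0, by omega⟩
            exact (h.norm_V_le hlm hy).trans hn
        rw [dist_zero_right, ← norm_V m y', ← dist_zero_right]
        have h1 := dist_triangle (V m y') (V l y) 0
        rw [dist_zero_right (V l y)] at h1
        linarith
    obtain ⟨C, hCX, hCL, hC⟩ := (h.dbl m).two_steps hb hR
    refine ⟨insert 0 (C.image (V m)), ?_, ?_, ?_⟩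
    · intro c hc
      rcases Finset.mem_insert.1 hc with rfl | hc
      · exact hz
      · obtain ⟨c', hc', rfl⟩ := Finset.mem_image.1 hc
        exact mem_glue.2 ⟨m, c', hCX c' hc', rfl⟩
    · calc (insert 0 (C.image (V m))).card ≤ (C.image (V m)).card + 1 := Finset.card_insert_le _ _
        _ ≤ L * L + 1 := Nat.add_le_add_right (Finset.card_image_le.trans hCL) 1
    · intro q hq hqp
      obtain ⟨l', y', hy', rfl⟩ := mem_glue.1 hq
      rcases lt_trichotomy l' m with hlt | heq | hgt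
      · by_cases hy0 : y' = 0
        · refine ⟨0, Finset.mem_insert_self _ _, ?_⟩
          rw [hy0, V_zero, dist_self]
          positivity
        · exfalso
          have hne : l ≠ l' ∨ y ≠ y' := by
            by_contra hcon
            push Not at hcon
            obtain ⟨rfl, rfl⟩ := hcon
            exact hcase ⟨hy0, hlt⟩
          have h1 := h.isolated hy' hy hy0 hne
          have h2 := hδ l' hlt
          linarith
      · subst heq
        obtain ⟨c, hc, hyc⟩ := hC y' hy' (hbase y' hy' hqp)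
        refine ⟨V l' c, Finset.mem_insert_of_mem (Finset.mem_image_of_mem _ hc), ?_⟩
        rw [dist_V]
        exact hyc
      · refine ⟨0, Finset.mem_insert_self _ _, ?_⟩
        rw [dist_zero_right]
        exact (h.norm_V_le hgt hy').trans hn

theorem finite_far (h : Good Y L r δ) {ρ : ℝ} (hρ : 0 < ρ) :
    {q | q ∈ glue Y ∧ ρ ≤ ‖q‖}.Finite := by
  obtain ⟨N, hN⟩ := h.exists_small (half_pos hρ)
  refine Set.Finite.subset (Set.Finite.biUnion (Set.finite_lt_nat N)
    (fun m _ => (h.fin m).image (V m))) ?_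
  rintro q ⟨hq, hqρ⟩
  obtain ⟨m, y, hy, rfl⟩ := mem_glue.1 hq
  rw [Set.mem_iUnion₂]
  refine ⟨m, ?_, y, hy, rfl⟩
  by_contra hm
  have h1 := h.norm_V_le (not_lt.1 hm) hy
  linarith

end Good

end Vale.Agent.P208
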