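import Vale.Agent.P208.Glue

namespace Vale.Agent.P208

open Filter Topology

/-- Data describing a finite set of `ℓ²`: a base point, a bound and a separation. -/
theorem finite_data {X : Set L2} (hX : X.Finite) (hne : X.Nonempty) :
    ∃ (p : L2) (R d : ℝ), p ∈ X ∧ 0 < d ∧ d ≤ R ∧ (∀ x ∈ X, dist x p ≤ R) ∧
      ∀ x ∈ X, ∀ y ∈ X, x ≠ y → d ≤ dist x y := by
  classical
  obtain ⟨p, hp⟩ := hne
  have hT : (((X ×ˢ X) \ {z | z.1 = z.2}) : Set (L2 × L2)).Finite := (hX.prod hX).sdiff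
  obtain ⟨R, hR⟩ : ∃ R : ℝ, ∀ x ∈ X, dist x p ≤ R := by
    obtain ⟨R, hR⟩ := (hX.image fun x => dist x p).bddAbove
    exact ⟨R, fun x hx => hR ⟨x, hx, rfl⟩⟩
  obtain ⟨d, hd0, hd⟩ : ∃ d : ℝ, 0 < d ∧ ∀ x ∈ X, ∀ y ∈ X, x ≠ y → d ≤ dist x y := by
    rcases (((X ×ˢ X) \ {z | z.1 = z.2}) : Set (L2 × L2)).eq_empty_or_nonempty with h | h
    · refine ⟨1, one_pos, fun x hx y hy hxy => ?_⟩
      exfalso
      have : (x, y) ∈ (((X ×ˢ X) \ {z | z.1 = z.2}) : Set (L2 × L2)) := ⟨⟨hx, hy⟩, hxy⟩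
      rw [h] at this
      exact this
    · obtain ⟨z, hz, hmin⟩ := Set.exists_min_image _ (fun z : L2 × L2 => dist z.1 z.2) hT h
      refine ⟨dist z.1 z.2, dist_pos.2 hz.2, fun x hx y hy hxy => ?_⟩
      exact hmin (x, y) ⟨⟨hx, hy⟩, hxy⟩
  refine ⟨p, max R (min d 1), min d 1, hp, by positivity, le_max_right _ _,
    fun x hx => (hR x hx).trans (le_max_left _ _), fun x hx y hy hxy =>
      (min_le_left _ _).trans (hd x hx y hy hxy)⟩

theorem glue_argument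
    (hall : ∀ X : Set L2, (0 : L2) ∈ X → (∀ ρ : ℝ, 0 < ρ → {q | q ∈ X ∧ ρ ≤ ‖q‖}.Finite) →
      Doubling X → ∃ (k : ℕ) (D : ℝ), EmbedsWith X k D) (L : ℕ) :
    ∃ (k : ℕ) (D : ℝ), ∀ X : Set L2, X.Finite → DoublingWith X L → EmbedsWith X k D := by
  classical
  by_contra hcon
  push Not at hcon
  have h1 : ∀ m : ℕ, ∃ X : Set L2, X.Finite ∧ DoublingWith X L ∧
      ¬ EmbedsWith X (Nat.unpair m).1 ((Nat.unpair m).2 : ℝ) := fun m =>
    hcon (Nat.unpair m).1 ((Nat.unpair m).2 : ℝ)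
  choose X hfin hdbl hnot using h1
  have hne : ∀ m, (X m).Nonempty := by
    intro m
    by_contra h
    rw [Set.not_nonempty_iff_eq_empty] at h
    apply hnot m
    rw [h]
    exact ⟨fun _ => 0, 1, one_pos, fun x hx => absurd hx (by simp)⟩
  have hdata := fun m => finite_data (hfin m) (hne m)
  choose p R d hp hd hdR hR hsep using hdata
  let t : ℕ → ℝ := fun m => ∏ i ∈ Finset.range m, d i / (8 * R (i + 1))
  have hRpos : ∀ m, 0 < R m := fun m => (hd m).trans_le (hdR m)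
  have ht : ∀ m, 0 < t m := fun m =>
    Finset.prod_pos fun i _ => div_pos (hd i) (by have := hRpos (i + 1); positivity)
  let φ : ℕ → L2 → L2 := fun m x => t m • (x - p m)
  have hφ : ∀ m x y, dist (φ m x) (φ m y) = t m * dist x y := by
    intro m x y
    simp only [φ]
    rw [dist_smul₀, dist_sub_right, Real.norm_of_nonneg (ht m).le]
  have hφp : ∀ m, φ m (p m) = 0 := fun m => by simp [φ]
  have hgood : Good (fun m => φ m '' X m) L (fun m => t m * R m) (fun m => t m * d m) := by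
    refine ⟨fun m => ⟨p m, hp m, hφp m⟩, fun m => (hfin m).image _,
      fun m => (hdbl m).image _ (ht m) (hφ m), fun m => mul_pos (ht m) (hd m),
      fun m => mul_le_mul_of_nonneg_left (hdR m) (ht m).le, ?_, ?_, ?_⟩
    · rintro m _ ⟨x, hx, rfl⟩
      rw [← dist_zero_right, ← hφp m, hφ]
      exact mul_le_mul_of_nonneg_left (hR m x hx) (ht m).le
    · rintro m _ ⟨x, hx, rfl⟩ _ ⟨y, hy, rfl⟩ hxy
      rw [hφ]
      refine mul_le_mul_of_nonneg_left (hsep m x hx y hy ?_) (ht m).le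
      rintro rfl
      exact hxy rfl
    · intro m
      have h2 : t (m + 1) = t m * (d m / (8 * R (m + 1))) := by
        simp only [t, Finset.prod_range_succ]
      have h3 := hRpos (m + 1)
      show t (m + 1) * R (m + 1) ≤ t m * d m / 8
      rw [h2]
      apply le_of_eq
      field_simp
  obtain ⟨k, D, f, a, ha, hf⟩ := hall (glue fun m => φ m '' X m)
    (mem_glue.2 ⟨0, 0, hgood.zero_mem 0, V_zero 0⟩) (fun ρ hρ => hgood.finite_far hρ)
    ⟨_, hgood.doubling⟩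
  let m : ℕ := Nat.pair k ⌈D⌉₊
  have hm1 : (Nat.unpair m).1 = k := by simp [m]
  have hm2 : (Nat.unpair m).2 = ⌈D⌉₊ := by simp [m]
  apply hnot m
  rw [hm1, hm2]
  refine ⟨fun x => f (V m (φ m x)), a * t m, mul_pos ha (ht m), fun x hx y hy => ?_⟩
  obtain ⟨h2, h3⟩ := hf (V m (φ m x)) (mem_glue.2 ⟨m, φ m x, ⟨x, hx, rfl⟩, rfl⟩)
    (V m (φ m y)) (mem_glue.2 ⟨m, φ m y, ⟨y, hy, rfl⟩, rfl⟩)
  rw [dist_V, hφ] at h2 h3
  refine ⟨by rw [mul_assoc]; exact h2, h3.trans ?_⟩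
  have h4 : 0 ≤ a * (t m * dist x y) := by
    have := ht m
    positivity
  calc D * a * (t m * dist x y) = D * (a * (t m * dist x y)) := by ring
    _ ≤ (⌈D⌉₊ : ℝ) * (a * (t m * dist x y)) :=
        mul_le_mul_of_nonneg_right (Nat.le_ceil D) h4
    _ = _ := by ring

end Vale.Agent.P208
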